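import Vale.Agent.P200.B.FrameH
import Vale.Agent.P200.B.Main
import Vale.Agent.P200.LDefs

open MvPolynomial Vale.Agent.P200 Vale.Agent.P200.L

universe u

/-- The lex-plus-powers conjecture (and with it the Eisenbud-Green-Harris conjecture) for every
field, all `c ≤ n` and all degrees `2 ≤ a₁ ≤ ⋯ ≤ a_c`: the span `J` of the lex-plus-powers
monomials is an ideal, it has the Hilbert function of `I`, and the graded Betti numbers of `S/I`
are at most those of `S/J`. -/
theorem Vale.Agent.Results.P200.A_Full2.result (K : Type u) [Field K] (n c : ℕ) (hc : c ≤ n)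
    (a : Fin c → ℕ) (ha : ∀ i, 2 ≤ a i) (hmono : Monotone a)
    (f : Fin c → MvPolynomial (Fin n) K) (hdeg : ∀ i, (f i).IsHomogeneous (a i)) (hreg : Reg f)
    (I : Ideal (MvPolynomial (Fin n) K))
    (hI : ∀ g ∈ I, ∀ d, homogeneousComponent d g ∈ I) (hf : ∀ i, f i ∈ I) :
    ∃ J : Ideal (MvPolynomial (Fin n) K),
      (J : Set (MvPolynomial (Fin n) K)) = lppSpace hc a I ∧
      (∀ d, dimIn J d = dimIn I d) ∧ ∀ p d, betti I p d ≤ betti J p d := by
  obtain ⟨J, h1, h2, h3⟩ := B.lpp_of_frame hc a (fun i => lt_of_lt_of_le two_pos (ha i)) hmono I hI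
    (B.frameH K n c hc a ha hmono f hdeg hreg I hf)
  exact ⟨J, congrArg SetLike.coe h1, h2, h3⟩
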