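import Vale.Agent.P200.Main

open MvPolynomial Vale.Agent.P200

universe u

/-- The Eisenbud-Green-Harris conjecture for regular sequences of quadrics: every field, every
number of variables `n`, every length `c ≤ n`. -/
theorem Vale.Agent.Results.P200.A_quadrics.result (K : Type u) [Field K] (n c : ℕ) (hc : c ≤ n)
    (f : Fin c → MvPolynomial (Fin n) K) (hdeg : ∀ i, (f i).IsHomogeneous 2) (hreg : Reg f)
    (I : Ideal (MvPolynomial (Fin n) K)) (hf : ∀ i, f i ∈ I) :
    ∃ (J : Ideal (MvPolynomial (Fin n) K)) (A : Set (Fin n →₀ ℕ)),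
      J = Ideal.span ((fun α => monomial α (1 : K)) '' A) ∧
      (∀ i : Fin c, X (Fin.castLE hc i) ^ 2 ∈ J) ∧
      ∀ d, dimIn I d = dimIn J d := by
  obtain ⟨A, h1, h2⟩ := egh_quadrics K n c hc f hdeg hreg I hf
  exact ⟨_, A, rfl, h1, h2⟩
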