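import Vale.Agent.P200.Eq.Step
import Vale.Agent.P200.Eq.Tower
import Vale.Agent.P200.Eq.Final

open MvPolynomial Vale.Agent.P200

universe u

/-- The Eisenbud-Green-Harris conjecture for degrees `a₁ ≤ a₂ ≤ a₃ = ⋯ = a_c`: every field, every
number of variables `n`, every length `2 ≤ c ≤ n`. -/
theorem Vale.Agent.Results.P200.A_tail.result (K : Type u) [Field K] (n c : ℕ) (hc2 : 2 ≤ c)
    (hc : c ≤ n) (a : Fin c → ℕ) (ha : ∀ i, 2 ≤ a i) (hmono : Monotone a)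
    (heq : ∀ i j : Fin c, 2 ≤ (i : ℕ) → 2 ≤ (j : ℕ) → a i = a j)
    (f : Fin c → MvPolynomial (Fin n) K) (hdeg : ∀ i, (f i).IsHomogeneous (a i)) (hreg : Reg f)
    (I : Ideal (MvPolynomial (Fin n) K)) (hf : ∀ i, f i ∈ I) :
    ∃ (J : Ideal (MvPolynomial (Fin n) K)) (A : Set (Fin n →₀ ℕ)),
      J = Ideal.span ((fun α => monomial α (1 : K)) '' A) ∧
      (∀ i : Fin c, X (Fin.castLE hc i) ^ a i ∈ J) ∧
      ∀ d, dimIn I d = dimIn J d := by
  obtain ⟨A, h1, h2⟩ := Eq.egh_of_tower K n c hc2 hc a (fun i => lt_of_lt_of_le two_pos (ha i))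
    hmono heq f hdeg hreg I hf fun k _ _ A hA w hw hli hb =>
      Eq.exists_tower w (fun E _ _ => Eq.exists_step hA w hw hli hb) c
  exact ⟨_, A, rfl, h1, h2⟩
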